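import Vale.Agent.P088.R2.H303.F.Tot
import Vale.Agent.P088.R2.H230.W.CvH

/-!
# P088, stage 3: far pairs, the certificate by real convexity

`W = Φ(u) + Ψ(u + S(r), r) + Θ(l(x)) + Θ(l(y))`, `S'' = 0` at `r`: the Hessian form of `W` dominates
`(a/2) (Φ' + G + Θ'(l(x))) s + (a/2) (Φ' + G + Θ'(l(y))) s'` if the Hessian form of `u` dominates
`a (s + s')`.
-/

open Set Filter
open scoped ContDiff Topology

noncomputable section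

namespace Vale.Agent.P088.R2.H303.F

open Vale.Agent.P088.R2.H961.GW Vale.Agent.P088.R2.H644 Vale.Agent.P088.R2.H960.W
open Vale.Agent.P088.R2.H747.SW Vale.Agent.P088.R2.H230.W Vale.Agent.P088.R2.H644.Ch

variable {E ι κ : Type*} [NormedAddCommGroup E] [NormedSpace ℝ E] [Fintype ι] [Fintype κ]

/-- The weight at far pairs. -/
def wF (Φ S Θ : ℝ → ℝ) (D : ℕ → ℕ → ℝ → ℝ → ℝ) (u r lx ly : E → ℝ) (z : E) : ℝ :=
  wt Φ S D u r z + (Θ (lx z) + Θ (ly z))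

/-- The data of the weight at far pairs. -/
structure WF (U : Set E) (Φ Φ₁ Φ₂ S S₁ S₂ Θ Θ₁ Θ₂ : ℝ → ℝ) (D : ℕ → ℕ → ℝ → ℝ → ℝ)
    (u r lx ly : E → ℝ) : Prop where
  w : Wd U Φ Φ₁ Φ₂ S S₁ S₂ D u r
  cx : Cp U lx Θ Θ₁ Θ₂
  cy : Cp U ly Θ Θ₁ Θ₂

variable {σ : Sl E ι} {τ : Sl E κ} {U : Set E} {θ θ' : E → ℝ} {u r lx ly : E → ℝ}
  {Φ Φ₁ Φ₂ S S₁ S₂ Θ Θ₁ Θ₂ : ℝ → ℝ} {D : ℕ → ℕ → ℝ → ℝ → ℝ} {z : E}

theorem WF.sm (w : WF U Φ Φ₁ Φ₂ S S₁ S₂ Θ Θ₁ Θ₂ D u r lx ly) :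
    Sm U (wF Φ S Θ D u r lx ly) := w.w.sm.add (w.cx.s0.add w.cy.s0)

/-- The quadratic form of the second derivatives of `Ψ`. -/
theorem quad_ge {d20 d11 d02 G r es X Y : ℝ} (h0 : 0 < d20) (_hG : 0 ≤ G)
    (h : |d02 * d20 - d11 ^ 2| ≤ es * (G * d20 / r)) :
    -(es * G / r) * Y ^ 2 ≤ d20 * X ^ 2 + 2 * d11 * (X * Y) + d02 * Y ^ 2 := by
  have h1 : d20 * X ^ 2 + 2 * d11 * (X * Y) + d02 * Y ^ 2 =
      d20 * (X + d11 / d20 * Y) ^ 2 + (d02 * d20 - d11 ^ 2) / d20 * Y ^ 2 := by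
    field_simp
    ring
  have h2 : -(es * G / r) ≤ (d02 * d20 - d11 ^ 2) / d20 := by
    rw [le_div_iff₀ h0]
    have := (abs_le.1 h).1
    calc -(es * G / r) * d20 = -(es * (G * d20 / r)) := by ring
      _ ≤ _ := this
  rw [h1]
  have h3 := mul_le_mul_of_nonneg_right h2 (sq_nonneg Y)
  have h4 : 0 ≤ d20 * (X + d11 / d20 * Y) ^ 2 := by positivity
  linarith

/-- **The certificate of the far pairs.** -/
theorem cert_F {a e Cr Cg es : ℝ} (ok : σ.Ok U θ) (ot : τ.Ok U θ')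
    (w : WF U Φ Φ₁ Φ₂ S S₁ S₂ Θ Θ₁ Θ₂ D u r lx ly) (hz : z ∈ U)
    (ps : ∀ A : ι → ℝ, 0 ≤ ss σ A z) (pt : ∀ B : κ → ℝ, 0 ≤ ss τ B z)
    (hu : ∀ (A : ι → ℝ) (B : κ → ℝ), a * (ss σ A z + ss τ B z) ≤ TH σ τ u z A B)
    (hx : ∀ (A : ι → ℝ) (B : κ → ℝ), a * ss σ A z ≤ TH σ τ lx z A B)
    (hy : ∀ (A : ι → ℝ) (B : κ → ℝ), a * ss τ B z ≤ TH σ τ ly z A B)
    (hr : ∀ (A : ι → ℝ) (B : κ → ℝ), |TH σ τ r z A B| ≤ Cr * (ss σ A z + ss τ B z))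
    (hr' : ∀ (A : ι → ℝ) (B : κ → ℝ), -(e * (ss σ A z + ss τ B z)) ≤ TH σ τ r z A B)
    (hg : ∀ (A : ι → ℝ) (B : κ → ℝ), GA σ τ r z A B ^ 2 ≤ Cg * (ss σ A z + ss τ B z))
    (hΦ₁ : 0 ≤ Φ₁ (u z)) (hΦ₂ : 0 ≤ Φ₂ (u z)) (x1 : 0 ≤ Θ₁ (lx z)) (x2 : 0 ≤ Θ₂ (lx z))
    (y1 : 0 ≤ Θ₁ (ly z)) (y2 : 0 ≤ Θ₂ (ly z)) (hL : 0 ≤ S₁ (r z)) (hS : S₂ (r z) = 0)
    (hr0 : 0 < r z) (ha : 0 ≤ a) (hes : 0 ≤ es) (G0 : 0 ≤ D 1 0 (u z + S (r z)) (r z))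
    (D20 : 0 < D 2 0 (u z + S (r z)) (r z))
    (D01 : |D 0 1 (u z + S (r z)) (r z)| ≤ es * D 1 0 (u z + S (r z)) (r z))
    (s0 : |D 0 2 (u z + S (r z)) (r z) * D 2 0 (u z + S (r z)) (r z) -
      D 1 1 (u z + S (r z)) (r z) ^ 2| ≤ es * (D 1 0 (u z + S (r z)) (r z) *
        D 2 0 (u z + S (r z)) (r z) / r z))
    (small : S₁ (r z) * e + es * Cr + es * Cg / r z ≤ a / 2) (A : ι → ℝ) (B : κ → ℝ) :
    a / 2 * (Φ₁ (u z) + D 1 0 (u z + S (r z)) (r z) + Θ₁ (lx z)) * ss σ A z +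
      a / 2 * (Φ₁ (u z) + D 1 0 (u z + S (r z)) (r z) + Θ₁ (ly z)) * ss τ B z ≤
      TH σ τ (wF Φ S Θ D u r lx ly) z A B := by
  have e1 : TH σ τ (wF Φ S Θ D u r lx ly) z A B = TH σ τ (wt Φ S D u r) z A B +
      (TH σ τ (fun z => Θ (lx z)) z A B + TH σ τ (fun z => Θ (ly z)) z A B) := by
    have h1 : TH σ τ (wF Φ S Θ D u r lx ly) z A B = TH σ τ (wt Φ S D u r) z A B +
        TH σ τ (fun z => Θ (lx z) + Θ (ly z)) z A B :=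
      TH_add ok ot w.w.sm (w.cx.s0.add w.cy.s0) hz A B
    rw [h1, TH_add ok ot w.cx.s0 w.cy.s0 hz A B]
  rw [e1, TH_wt ok ot w.w hz, TH_comp ok ot w.cx hz, TH_comp ok ot w.cy hz, hS]
  set G := D 1 0 (u z + S (r z)) (r z) with hG
  set X := ss σ A z with hX
  set Y := ss τ B z with hY
  have X0 : 0 ≤ X := ps A
  have Y0 : 0 ≤ Y := pt B
  have q := quad_ge (X := GA σ τ u z A B + S₁ (r z) * GA σ τ r z A B)
    (Y := GA σ τ r z A B) D20 G0 s0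
  have k1 := mul_le_mul_of_nonneg_left (hu A B) hΦ₁
  have k2 := mul_le_mul_of_nonneg_left (hu A B) G0
  have k3 := mul_le_mul_of_nonneg_left (hr' A B) (mul_nonneg G0 hL)
  have k4 : -(es * G * (Cr * (X + Y))) ≤ D 0 1 (u z + S (r z)) (r z) * TH σ τ r z A B := by
    have h1 : |D 0 1 (u z + S (r z)) (r z) * TH σ τ r z A B| ≤ es * G * (Cr * (X + Y)) := by
      rw [abs_mul]
      exact mul_le_mul D01 (hr A B) (abs_nonneg _) ((abs_nonneg _).trans D01)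
    exact (abs_le.1 h1).1
  have k5 : -(es * G / r z * (Cg * (X + Y))) ≤ -(es * G / r z) * GA σ τ r z A B ^ 2 := by
    have := mul_le_mul_of_nonneg_left (hg A B) (by positivity : 0 ≤ es * G / r z)
    linarith
  have k6 := mul_le_mul_of_nonneg_left (hx A B) x1
  have k7 := mul_le_mul_of_nonneg_left (hy A B) y1
  have k8 : 0 ≤ Φ₂ (u z) * GA σ τ u z A B ^ 2 := by positivity
  have k9 : 0 ≤ Θ₂ (lx z) * GA σ τ lx z A B ^ 2 := by positivity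
  have k10 : 0 ≤ Θ₂ (ly z) * GA σ τ ly z A B ^ 2 := by positivity
  have k11 := mul_le_mul_of_nonneg_left small (mul_nonneg G0 (add_nonneg X0 Y0))
  have k12 : 0 ≤ a / 2 * Φ₁ (u z) * (X + Y) := by positivity
  have k13 : 0 ≤ a / 2 * Θ₁ (lx z) * X := by positivity
  have k14 : 0 ≤ a / 2 * Θ₁ (ly z) * Y := by positivity
  have k15 : G * (X + Y) * (S₁ (r z) * e + es * Cr + es * Cg / r z) =
      G * S₁ (r z) * (e * (X + Y)) + es * G * (Cr * (X + Y)) +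
        es * G / r z * (Cg * (X + Y)) := by ring
  rw [k15] at k11
  linarith

end Vale.Agent.P088.R2.H303.F
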