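import Vale.Agent.P088.R2.H303.F.ZoneU
import Vale.Agent.P088.R2.H644.W.Qf

/-!
# P088, stage 3: the pointwise total inequality without fields and with two margins
-/

open Set Filter
open scoped ContDiff Topology

noncomputable section

namespace Vale.Agent.P088.R2.H303.F

open Vale.Agent.P088.R2.H961.GW Vale.Agent.P088.R2.H644 Vale.Agent.P088.R2.H960.W
open Vale.Agent.P088.R2.H747.SW

variable {E ι κ : Type*} [NormedAddCommGroup E] [NormedSpace ℝ E] [Fintype ι] [Fintype κ]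

/-- Certificate and smallness of the terms of order three and four, two margins, no fields. -/
structure Cr (σ : Sl E ι) (τ : Sl E κ) (v₁ v₂ W : E → ℝ) (m₁ m₂ ε : ℝ) (z : E) : Prop where
  ct : ∀ (A : ι → ℝ) (B : κ → ℝ), m₁ * ss σ A z + m₂ * ss τ B z ≤ Ch.TH σ τ W z A B
  g1 : |Ch.G2 σ W z| ≤ ε * (m₁ * σ.F W z)
  g2 : |Ch.G2 τ W z| ≤ ε * (m₂ * τ.F W z)
  g3 : M2 σ τ W W z ^ 2 ≤ ε ^ 2 * ((m₁ * σ.F W z) * (m₂ * τ.F W z))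
  t1 : σ.Γ (σ.Λ W) (σ.Λ W) z ≤ ε * (m₁ * (m₁ * σ.F W z))
  t2 : σ.Γ (τ.Λ W) (τ.Λ W) z ≤ ε * (m₁ * (m₂ * τ.F W z))
  t3 : τ.Γ (σ.Λ W) (σ.Λ W) z ≤ ε * (m₂ * (m₁ * σ.F W z))
  t4 : τ.Γ (τ.Λ W) (τ.Λ W) z ≤ ε * (m₂ * (m₂ * τ.F W z))
  l1 : |σ.Λ (σ.Λ W) z| ≤ ε * (m₁ * σ.F W z)
  l2 : |τ.Λ (τ.Λ W) z| ≤ ε * (m₂ * τ.F W z)
  l3 : σ.Λ (τ.Λ W) z ^ 2 ≤ ε ^ 2 * ((m₁ * σ.F W z) * (m₂ * τ.F W z))
  p1 : |σ.Γ W v₁ z| ≤ ε * (m₁ * σ.F W z)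
  p2 : |τ.Γ W v₂ z| ≤ ε * (m₂ * τ.F W z)

theorem crossU {g x P X ε m : ℝ} (hε : 0 ≤ ε) (hm : 0 ≤ m) (hP : 0 ≤ P) (hX : 0 ≤ X)
    (h : g ^ 2 ≤ ε * (m * P) * X) : 8 * (x * g) ≤ m * X + 16 * (ε * (P * x ^ 2)) := by
  have h1 : (8 * (x * g)) ^ 2 ≤ (m * X + 16 * (ε * (P * x ^ 2))) ^ 2 := by
    have h2 : (8 * (x * g)) ^ 2 ≤ 64 * (x ^ 2 * (ε * (m * P) * X)) := by
      have := mul_le_mul_of_nonneg_left h (sq_nonneg x)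
      nlinarith
    nlinarith [sq_nonneg (m * X - 16 * (ε * (P * x ^ 2)))]
  have h3 : 0 ≤ m * X + 16 * (ε * (P * x ^ 2)) := by positivity
  exact (abs_le_of_sq_le_sq' h1 h3).2

theorem mixedU {M P Q x y ε : ℝ} (hε : 0 ≤ ε) (hP : 0 ≤ P) (hQ : 0 ≤ Q)
    (h : M ^ 2 ≤ ε ^ 2 * (P * Q)) : |2 * (M * (x * y))| ≤ ε * (P * x ^ 2 + Q * y ^ 2) := by
  refine abs_le_of_sq_le_sq ?_ (by positivity)
  have h1 : (2 * (M * (x * y))) ^ 2 ≤ 4 * (ε ^ 2 * (P * Q)) * (x ^ 2 * y ^ 2) := by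
    have := mul_le_mul_of_nonneg_right h (by positivity : 0 ≤ x ^ 2 * y ^ 2)
    nlinarith
  have h2 : 4 * (ε ^ 2 * (P * Q)) * (x ^ 2 * y ^ 2) ≤ (ε * (P * x ^ 2 + Q * y ^ 2)) ^ 2 := by
    have e : (ε * (P * x ^ 2 + Q * y ^ 2)) ^ 2 - 4 * (ε ^ 2 * (P * Q)) * (x ^ 2 * y ^ 2) =
        (ε * (P * x ^ 2 - Q * y ^ 2)) ^ 2 := by ring
    have := sq_nonneg (ε * (P * x ^ 2 - Q * y ^ 2))
    linarith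
  exact h1.trans h2

variable {σ : Sl E ι} {τ : Sl E κ} {U Ω S : Set E} {θ : E → ℝ}
  {v v₁ v₂ W f g h a b m χ : E → ℝ} {η K : ℝ} {z : E}

/-- **The pointwise total inequality, two margins.** -/
theorem Cr.tot {ε m₁ m₂ : ℝ} (hε : 0 ≤ ε) (hεη : 60 * ε ≤ η) (h₁ : 0 ≤ m₁) (h₂ : 0 ≤ m₂)
    (hs : ∀ i j, σ.s i j z = σ.s j i z) (ht : ∀ i j, τ.s i j z = τ.s j i z)
    (ps : ∀ A : ι → ℝ, 0 ≤ ss σ A z) (pt : ∀ B : κ → ℝ, 0 ≤ ss τ B z)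
    (C : Cr σ τ v₁ v₂ W m₁ m₂ ε z) (A : ι → ℝ) (B : κ → ℝ) (x y : ℝ) :
    4 * (m₁ * ss σ A z + m₂ * ss τ B z) -
      η * (m₁ * σ.F W z * x ^ 2 + m₂ * τ.F W z * y ^ 2) ≤
    8 * Ch.TH σ τ W z A B + qf σ τ v₁ v₂ W z A B x y := by
  have hF : 0 ≤ σ.F W z := ps fun i => σ.D i W z
  have hF' : 0 ≤ τ.F W z := pt fun i => τ.D i W z
  have hA := ps A
  have hB := pt B
  set P := m₁ * σ.F W z with hP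
  set Q := m₂ * τ.F W z with hQ
  have P0 : 0 ≤ P := mul_nonneg h₁ hF
  have Q0 : 0 ≤ Q := mul_nonneg h₂ hF'
  have c0 := C.ct A B
  have a1 : Ch.G2 σ W z ≤ ε * P := (abs_le.1 C.g1).2
  have a2 : Ch.G2 τ W z ≤ ε * Q := (abs_le.1 C.g2).2
  have a3 := mixedU (x := x) (y := y) hε P0 Q0 C.g3
  have b1 := crossU (x := x) hε h₁ P0 hA ((gA_le hs ps _ A).trans
    (mul_le_mul_of_nonneg_right C.t1 hA))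
  have b2 := crossU (x := y) hε h₁ Q0 hA ((gA_le hs ps _ A).trans
    (mul_le_mul_of_nonneg_right C.t2 hA))
  have b3 := crossU (x := x) hε h₂ P0 hB ((gA_le ht pt _ B).trans
    (mul_le_mul_of_nonneg_right C.t3 hB))
  have b4 := crossU (x := y) hε h₂ Q0 hB ((gA_le ht pt _ B).trans
    (mul_le_mul_of_nonneg_right C.t4 hB))
  have d1 : -(ε * P) ≤ σ.Λ (σ.Λ W) z := (abs_le.1 C.l1).1
  have d2 : -(ε * Q) ≤ τ.Λ (τ.Λ W) z := (abs_le.1 C.l2).1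
  have d3 := mixedU (x := x) (y := y) hε P0 Q0 C.l3
  have p1 : -(ε * P) ≤ σ.Γ W v₁ z := (abs_le.1 C.p1).1
  have p2 : -(ε * Q) ≤ τ.Γ W v₂ z := (abs_le.1 C.p2).1
  have e1 := mul_le_mul_of_nonneg_right a1 (sq_nonneg x)
  have e2 := mul_le_mul_of_nonneg_right a2 (sq_nonneg y)
  have e3 := (abs_le.1 a3).2
  have f1 := mul_le_mul_of_nonneg_right d1 (sq_nonneg x)
  have f2 := mul_le_mul_of_nonneg_right d2 (sq_nonneg y)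
  have f3 := (abs_le.1 d3).1
  have q1 := mul_le_mul_of_nonneg_right p1 (sq_nonneg x)
  have q2 := mul_le_mul_of_nonneg_right p2 (sq_nonneg y)
  have z0 : 0 ≤ P * x ^ 2 + Q * y ^ 2 := by positivity
  have z1 := mul_le_mul_of_nonneg_right hεη z0
  have z2 : 0 ≤ ε * (P * x ^ 2 + Q * y ^ 2) := mul_nonneg hε z0
  have k1 : 0 ≤ m₁ * ss σ A z := mul_nonneg h₁ hA
  have k2 : 0 ≤ m₂ * ss τ B z := mul_nonneg h₂ hB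
  unfold qf
  linarith

/-- The common bounds at a point, slot by slot. -/
structure B1 (σ : Sl E ι) (τ : Sl E κ) (W : E → ℝ) (z : E)
    (C δ n₁ n₂ k₁ k₃ k₂ t₁ t₃ t₂ l₁ l₃ l₂ : ℝ) : Prop where
  C0 : 0 ≤ C
  δ0 : 0 ≤ δ
  δ1 : δ ≤ 1
  n10 : 0 ≤ n₁
  n20 : 0 ≤ n₂
  k10 : 0 ≤ k₁
  k20 : 0 ≤ k₂
  k30 : 0 ≤ k₃
  s1 : ∀ i j, |σ.s i j z| ≤ C
  s2 : ∀ i j, |τ.s i j z| ≤ C
  ds1 : ∀ l i j, |σ.D l (σ.s i j) z| ≤ C * δ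
  ds2 : ∀ l i j, |τ.D l (τ.s i j) z| ≤ C * δ
  dds1 : ∀ l k i j, |σ.D l (σ.D k (σ.s i j)) z| ≤ C * δ
  dds2 : ∀ l k i j, |τ.D l (τ.D k (τ.s i j)) z| ≤ C * δ
  d1 : ∀ i, |σ.D i W z| ≤ C * n₁
  d2 : ∀ i, |τ.D i W z| ≤ C * n₂
  d11 : ∀ i j, |σ.D i (σ.D j W) z| ≤ C * k₁
  d12 : ∀ i j, |σ.D i (τ.D j W) z| ≤ C * k₃
  d22 : ∀ i j, |τ.D i (τ.D j W) z| ≤ C * k₂
  D11 : ∀ i, |σ.D i (σ.Λ W) z| ≤ C * t₁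
  D12 : ∀ i, |σ.D i (τ.Λ W) z| ≤ C * t₃
  D21 : ∀ i, |τ.D i (σ.Λ W) z| ≤ C * t₃
  D22 : ∀ i, |τ.D i (τ.Λ W) z| ≤ C * t₂
  L11 : |σ.Λ (σ.Λ W) z| ≤ C * l₁
  L12 : |σ.Λ (τ.Λ W) z| ≤ C * l₃
  L22 : |τ.Λ (τ.Λ W) z| ≤ C * l₂

theorem G_self {f : E → ℝ} {S d : ℝ} (hS : ∀ i j, |σ.s i j z| ≤ S)
    (hd : ∀ i, |σ.D i f z| ≤ d) :
    σ.Γ f f z ≤ (Fintype.card ι : ℝ) ^ 2 * (S * d * d) :=
  (le_abs_self _).trans (Sy.G_le hS hd hd)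

/-- The constant. -/
def Xc (a C : ℝ) : ℝ := (a + 1) ^ 4 * (C + 1) ^ 4

/-- The constant. -/
def Ctot (a C c₀ : ℝ) : ℝ := 8 * Xc a C / c₀

theorem Xc_one {a C : ℝ} (ha : 0 ≤ a) (hC : 0 ≤ C) : 1 ≤ Xc a C := by
  have x1 : 1 ≤ (a + 1) ^ 4 := one_le_pow₀ (by linarith)
  have x2 : 1 ≤ (C + 1) ^ 4 := one_le_pow₀ (by linarith)
  unfold Xc
  exact one_le_mul_of_one_le_of_one_le x1 x2

theorem Xc_mono {a C r : ℝ} (hC : 0 ≤ C) {p q : ℕ} (hp : p ≤ 4) (hq : q ≤ 4) (hr : 0 ≤ r)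
    (hra : r ≤ a) : r ^ p * C ^ q ≤ Xc a C := by
  have y1 : r ^ p ≤ (a + 1) ^ 4 :=
    (pow_le_pow_left₀ hr (by linarith) p).trans (pow_le_pow_right₀ (by linarith) hp)
  have y2 : C ^ q ≤ (C + 1) ^ 4 :=
    (pow_le_pow_left₀ hC (by linarith) q).trans (pow_le_pow_right₀ (by linarith) hq)
  exact mul_le_mul y1 y2 (by positivity) (by positivity)

/-- Conversion of the reference sizes into the margins. -/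
theorem cv1 {a C c₀ ε m F n u : ℝ} (ha : 0 ≤ a) (hC : 0 ≤ C) (hc : 0 < c₀) (hε : 0 ≤ ε)
    (hm : 0 ≤ m) (hF : c₀ * n ^ 2 ≤ F) (hu : u ≤ 8 * Xc a C * (ε * (m * n ^ 2))) :
    u ≤ Ctot a C c₀ * ε * (m * F) := by
  have X1 := Xc_one ha hC
  have h1 := mul_le_mul_of_nonneg_left hF hm
  have hCt : 0 ≤ Ctot a C c₀ := by unfold Ctot; positivity
  have h2 := mul_le_mul_of_nonneg_left h1 (mul_nonneg hCt hε)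
  have e : Ctot a C c₀ * ε * (m * (c₀ * n ^ 2)) = 8 * Xc a C * (ε * (m * n ^ 2)) := by
    unfold Ctot
    field_simp
  linarith

theorem cv2 {a C c₀ ε m₁ m₂ F₁ F₂ n₁ n₂ u : ℝ} (ha : 0 ≤ a) (hC : 0 ≤ C) (hc : 0 < c₀)
    (h₁ : 0 ≤ m₁) (h₂ : 0 ≤ m₂) (hF₁ : c₀ * n₁ ^ 2 ≤ F₁) (hF₂ : c₀ * n₂ ^ 2 ≤ F₂)
    (hu : u ≤ (8 * Xc a C) ^ 2 * (ε ^ 2 * ((m₁ * n₁ ^ 2) * (m₂ * n₂ ^ 2)))) :
    u ≤ (Ctot a C c₀ * ε) ^ 2 * ((m₁ * F₁) * (m₂ * F₂)) := by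
  have X1 := Xc_one ha hC
  have f1 : 0 ≤ c₀ * n₁ ^ 2 := by positivity
  have h1 : m₁ * (c₀ * n₁ ^ 2) ≤ m₁ * F₁ := mul_le_mul_of_nonneg_left hF₁ h₁
  have h2 : m₂ * (c₀ * n₂ ^ 2) ≤ m₂ * F₂ := mul_le_mul_of_nonneg_left hF₂ h₂
  have h3 : (m₁ * (c₀ * n₁ ^ 2)) * (m₂ * (c₀ * n₂ ^ 2)) ≤ (m₁ * F₁) * (m₂ * F₂) :=
    mul_le_mul h1 h2 (by positivity) ((by positivity : 0 ≤ m₁ * (c₀ * n₁ ^ 2)).trans h1)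
  have h4 := mul_le_mul_of_nonneg_left h3 (sq_nonneg (Ctot a C c₀ * ε))
  have e : (Ctot a C c₀ * ε) ^ 2 * ((m₁ * (c₀ * n₁ ^ 2)) * (m₂ * (c₀ * n₂ ^ 2))) =
      (8 * Xc a C) ^ 2 * (ε ^ 2 * ((m₁ * n₁ ^ 2) * (m₂ * n₂ ^ 2))) := by
    unfold Ctot
    field_simp
  linarith

/-- The bound of `Γ₂`. -/
theorem e_G2 {r a C k δ n ε m : ℝ} (hC : 0 ≤ C) (hr : 0 ≤ r) (hra : r ≤ a)
    (hδ : 0 ≤ δ) (h : k ^ 2 + δ * n ^ 2 ≤ ε * (m * n ^ 2)) :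
    4 * r ^ 4 * C ^ 4 * (k ^ 2 + δ * n ^ 2) ≤ 8 * Xc a C * (ε * (m * n ^ 2)) := by
  have y1 := Xc_mono hC (le_refl 4) (le_refl 4) hr hra
  have y2 : 0 ≤ k ^ 2 + δ * n ^ 2 := by positivity
  have y3 : 0 ≤ r ^ 4 * C ^ 4 := by positivity
  have X0 : 0 ≤ Xc a C := y3.trans y1
  calc 4 * r ^ 4 * C ^ 4 * (k ^ 2 + δ * n ^ 2)
      = 4 * ((r ^ 4 * C ^ 4) * (k ^ 2 + δ * n ^ 2)) := by ring
    _ ≤ 4 * (Xc a C * (ε * (m * n ^ 2))) :=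
      mul_le_mul_of_nonneg_left (mul_le_mul y1 h y2 X0) (by norm_num)
    _ ≤ 8 * Xc a C * (ε * (m * n ^ 2)) := by
      have : 0 ≤ Xc a C * (ε * (m * n ^ 2)) := mul_nonneg X0 (y2.trans h)
      linarith

/-- The third order terms. -/
theorem e_T {r a C t c₀ ε m P F n G : ℝ} (hC : 0 ≤ C) (hr : 0 ≤ r) (hra : r ≤ a) (hc : 0 < c₀)
    (hε : 0 ≤ ε) (hm : 0 ≤ m) (hP : 0 ≤ P) (hF : c₀ * n ^ 2 ≤ F)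
    (hG : G ≤ r ^ 2 * (C * (C * t) * (C * t))) (h : t ^ 2 ≤ ε * (m * (P * n ^ 2))) :
    G ≤ Ctot a C c₀ * ε * (m * (P * F)) := by
  have ha : 0 ≤ a := hr.trans hra
  have y1 := Xc_mono (p := 2) (q := 3) hC (by norm_num) (by norm_num) hr hra
  have X0 : 0 ≤ Xc a C := by linarith [Xc_one ha hC]
  have h1 : G ≤ Xc a C * (ε * (m * (P * n ^ 2))) := by
    calc G ≤ r ^ 2 * (C * (C * t) * (C * t)) := hG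
      _ = (r ^ 2 * C ^ 3) * t ^ 2 := by ring
      _ ≤ Xc a C * (ε * (m * (P * n ^ 2))) := mul_le_mul y1 h (sq_nonneg _) X0
  have h0 : 0 ≤ Xc a C * (ε * (m * (P * n ^ 2))) :=
    mul_nonneg X0 ((sq_nonneg t).trans h)
  have h2 : m * (Xc a C * (ε * (P * n ^ 2))) ≤ m * (8 * Xc a C * (ε * (P * n ^ 2))) := by
    refine mul_le_mul_of_nonneg_left ?_ hm
    have : 0 ≤ Xc a C * (ε * (P * n ^ 2)) := by positivity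
    linarith
  have h3 := mul_le_mul_of_nonneg_left (cv1 ha hC hc hε hP hF
    (le_refl (8 * Xc a C * (ε * (P * n ^ 2))))) hm
  calc G ≤ Xc a C * (ε * (m * (P * n ^ 2))) := h1
    _ = m * (Xc a C * (ε * (P * n ^ 2))) := by ring
    _ ≤ m * (Ctot a C c₀ * ε * (P * F)) := h2.trans h3
    _ = _ := by ring

/-- Linear terms. -/
theorem e_L {a C l ε P : ℝ} (ha : 0 ≤ a) (hC : 0 ≤ C) (hε : 0 ≤ ε) (hP : 0 ≤ P)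
    (h : l ≤ ε * P) : C * l ≤ 8 * Xc a C * (ε * P) := by
  have y2 : C ≤ Xc a C := by
    have := Xc_mono (p := 0) (q := 1) (r := 0) hC (by norm_num) (by norm_num) le_rfl ha
    simpa using this
  have y1 := mul_le_mul_of_nonneg_left h hC
  have y3 : C * (ε * P) ≤ Xc a C * (ε * P) := mul_le_mul_of_nonneg_right y2 (by positivity)
  have : 0 ≤ Xc a C * (ε * P) := by
    have := hC.trans y2
    positivity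
  linarith

/-- Mixed terms. -/
theorem e_M {a C M X k ε Y : ℝ} (ha : 0 ≤ a) (hC : 0 ≤ C) (hX : X ≤ Xc a C) (hX0 : 0 ≤ X)
    (hM : |M| ≤ X * k) (h : k ^ 2 ≤ ε ^ 2 * Y) :
    M ^ 2 ≤ (8 * Xc a C) ^ 2 * (ε ^ 2 * Y) := by
  have X1 := Xc_one ha hC
  have h0 : 0 ≤ ε ^ 2 * Y := (sq_nonneg k).trans h
  have y3 : M ^ 2 ≤ (X * k) ^ 2 := by
    rw [← sq_abs]
    exact pow_le_pow_left₀ (abs_nonneg _) hM 2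
  calc M ^ 2 ≤ (X * k) ^ 2 := y3
    _ = X ^ 2 * k ^ 2 := by ring
    _ ≤ (8 * Xc a C) ^ 2 * (ε ^ 2 * Y) :=
      mul_le_mul (pow_le_pow_left₀ hX0 (by linarith) 2) h (sq_nonneg _) (sq_nonneg _)

/-- **The errors are small.** `ε` measures the sizes against the margins. -/
theorem B1.cr {C δ n₁ n₂ k₁ k₃ k₂ t₁ t₃ t₂ l₁ l₃ l₂ m₁ m₂ c₀ ε ν a : ℝ} {θ' : E → ℝ}
    (b : B1 σ τ W z C δ n₁ n₂ k₁ k₃ k₂ t₁ t₃ t₂ l₁ l₃ l₂)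
    (ok : σ.Ok U θ) (ot : τ.Ok U θ') (h1 : ∀ z, σ.ρ z = 1) (h1' : ∀ z, τ.ρ z = 1)
    (hL : Ch.Lx σ U) (hL' : Ch.Lx τ U) (hW : Sm U W) (hz : z ∈ U)
    (ha : (Fintype.card ι : ℝ) ≤ a) (ha' : (Fintype.card κ : ℝ) ≤ a)
    (hv₁ : ∀ i, |σ.D i v₁ z| ≤ C * ν) (hv₂ : ∀ i, |τ.D i v₂ z| ≤ C * ν) (hν : 0 ≤ ν)
    (hm₁ : 0 ≤ m₁) (hm₂ : 0 ≤ m₂) (hc : 0 < c₀) (hε : 0 ≤ ε)
    (F₁ : c₀ * n₁ ^ 2 ≤ σ.F W z) (F₂ : c₀ * n₂ ^ 2 ≤ τ.F W z)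
    (e1 : k₁ ^ 2 + δ * n₁ ^ 2 ≤ ε * (m₁ * n₁ ^ 2)) (e2 : k₂ ^ 2 + δ * n₂ ^ 2 ≤ ε * (m₂ * n₂ ^ 2))
    (e3 : (k₃ ^ 2) ^ 2 ≤ ε ^ 2 * ((m₁ * n₁ ^ 2) * (m₂ * n₂ ^ 2)))
    (f1 : t₁ ^ 2 ≤ ε * (m₁ * (m₁ * n₁ ^ 2))) (f2 : t₂ ^ 2 ≤ ε * (m₂ * (m₂ * n₂ ^ 2)))
    (f3 : t₃ ^ 2 ≤ ε * (m₁ * (m₂ * n₂ ^ 2))) (f4 : t₃ ^ 2 ≤ ε * (m₂ * (m₁ * n₁ ^ 2)))
    (g1 : l₁ ≤ ε * (m₁ * n₁ ^ 2)) (g2 : l₂ ≤ ε * (m₂ * n₂ ^ 2))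
    (g3 : l₃ ^ 2 ≤ ε ^ 2 * ((m₁ * n₁ ^ 2) * (m₂ * n₂ ^ 2)))
    (p1 : ν * n₁ ≤ ε * (m₁ * n₁ ^ 2)) (p2 : ν * n₂ ≤ ε * (m₂ * n₂ ^ 2))
    (ct : ∀ (A : ι → ℝ) (B : κ → ℝ), m₁ * ss σ A z + m₂ * ss τ B z ≤ Ch.TH σ τ W z A B) :
    Cr σ τ v₁ v₂ W m₁ m₂ (Ctot a C c₀ * ε) z := by
  have C0 := b.C0
  have i0 : 0 ≤ (Fintype.card ι : ℝ) := Nat.cast_nonneg _
  have j0 : 0 ≤ (Fintype.card κ : ℝ) := Nat.cast_nonneg _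
  have a0 : 0 ≤ a := i0.trans ha
  have P0 : 0 ≤ m₁ * n₁ ^ 2 := by positivity
  have Q0 : 0 ≤ m₂ * n₂ ^ 2 := by positivity
  have G1 : |Ch.G2 σ W z| ≤ 4 * (Fintype.card ι : ℝ) ^ 4 * C ^ 4 * (k₁ ^ 2 + δ * n₁ ^ 2) :=
    Sy.g2_arith b.δ0 b.δ1 (Ch.G2_bd' ok h1 hL hW hz b.s1 b.ds1 b.dds1 b.d1 b.d11)
  have G2 : |Ch.G2 τ W z| ≤ 4 * (Fintype.card κ : ℝ) ^ 4 * C ^ 4 * (k₂ ^ 2 + δ * n₂ ^ 2) :=
    Sy.g2_arith b.δ0 b.δ1 (Ch.G2_bd' ot h1' hL' hW hz b.s2 b.ds2 b.dds2 b.d2 b.d22)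
  have M : |M2 σ τ W W z| ≤
      (Fintype.card κ : ℝ) ^ 2 * ((Fintype.card ι : ℝ) ^ 2 * (C * C * (C * k₃) ^ 2)) :=
    Ch.M2_bd b.s1 b.s2 b.d12
  have M' : (Fintype.card κ : ℝ) ^ 2 * ((Fintype.card ι : ℝ) ^ 2 * C ^ 4) ≤ Xc a C := by
    have z1 : (Fintype.card κ : ℝ) ^ 2 * (Fintype.card ι : ℝ) ^ 2 ≤ (a + 1) ^ 4 := by
      calc (Fintype.card κ : ℝ) ^ 2 * (Fintype.card ι : ℝ) ^ 2 ≤ (a + 1) ^ 2 * (a + 1) ^ 2 := by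
            gcongr <;> linarith
        _ = _ := by ring
    have z2 : C ^ 4 ≤ (C + 1) ^ 4 := pow_le_pow_left₀ C0 (by linarith) 4
    calc _ = (Fintype.card κ : ℝ) ^ 2 * (Fintype.card ι : ℝ) ^ 2 * C ^ 4 := by ring
      _ ≤ _ := mul_le_mul z1 z2 (by positivity) (by positivity)
  exact
    { ct := ct
      g1 := cv1 a0 C0 hc hε hm₁ F₁ (G1.trans (e_G2 C0 i0 ha b.δ0 e1))
      g2 := cv1 a0 C0 hc hε hm₂ F₂ (G2.trans (e_G2 C0 j0 ha' b.δ0 e2))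
      g3 := cv2 a0 C0 hc hm₁ hm₂ F₁ F₂ (e_M a0 C0 M' (by positivity)
        (M.trans (le_of_eq (by ring))) e3)
      t1 := e_T C0 i0 ha hc hε hm₁ hm₁ F₁ (G_self b.s1 b.D11) f1
      t2 := e_T C0 i0 ha hc hε hm₁ hm₂ F₂ (G_self b.s1 b.D12) f3
      t3 := e_T C0 j0 ha' hc hε hm₂ hm₁ F₁ (G_self b.s2 b.D21) f4
      t4 := e_T C0 j0 ha' hc hε hm₂ hm₂ F₂ (G_self b.s2 b.D22) f2
      l1 := cv1 a0 C0 hc hε hm₁ F₁ (b.L11.trans (e_L a0 C0 hε P0 g1))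
      l2 := cv1 a0 C0 hc hε hm₂ F₂ (b.L22.trans (e_L a0 C0 hε Q0 g2))
      l3 := cv2 a0 C0 hc hm₁ hm₂ F₁ F₂ (e_M a0 C0 (X := C)
        (by
          have := Xc_mono (p := 0) (q := 1) (r := 0) C0 (by norm_num) (by norm_num) le_rfl a0
          simpa using this) C0 b.L12 g3)
      p1 := cv1 a0 C0 hc hε hm₁ F₁ ((Sy.G_le b.s1 b.d1 hv₁).trans (by
        have y := Xc_mono (p := 2) (q := 3) C0 (by norm_num) (by norm_num) i0 ha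
        have X0 : 0 ≤ Xc a C := by linarith [Xc_one a0 C0]
        have y2 := mul_le_mul y p1 (mul_nonneg hν b.n10) X0
        have y3 : 0 ≤ Xc a C * (ε * (m₁ * n₁ ^ 2)) := by positivity
        calc (Fintype.card ι : ℝ) ^ 2 * (C * (C * n₁) * (C * ν)) =
            (Fintype.card ι : ℝ) ^ 2 * C ^ 3 * (ν * n₁) := by ring
          _ ≤ Xc a C * (ε * (m₁ * n₁ ^ 2)) := y2
          _ ≤ _ := by linarith))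
      p2 := cv1 a0 C0 hc hε hm₂ F₂ ((Sy.G_le b.s2 b.d2 hv₂).trans (by
        have y := Xc_mono (p := 2) (q := 3) C0 (by norm_num) (by norm_num) j0 ha'
        have X0 : 0 ≤ Xc a C := by linarith [Xc_one a0 C0]
        have y2 := mul_le_mul y p2 (mul_nonneg hν b.n20) X0
        have y3 : 0 ≤ Xc a C * (ε * (m₂ * n₂ ^ 2)) := by positivity
        calc (Fintype.card κ : ℝ) ^ 2 * (C * (C * n₂) * (C * ν)) =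
            (Fintype.card κ : ℝ) ^ 2 * C ^ 3 * (ν * n₂) := by ring
          _ ≤ Xc a C * (ε * (m₂ * n₂ ^ 2)) := y2
          _ ≤ _ := by linarith)) }

end Vale.Agent.P088.R2.H303.F
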