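import Vale.Agent.P088.R2.H747.S.Zn

/-!
# P088, stage 3: a zone without fields and with two margins

`zoneU`: no fields; the margins are `m₁ s` in the first slot and `m₂ s'` in the second.
-/

open MeasureTheory Set Filter
open scoped ContDiff Topology

noncomputable section

namespace Vale.Agent.P088.R2.H303.F

open Vale.Agent.P088.R2.H961.GW Vale.Agent.P088.R2.H644 Vale.Agent.P088.R2.H960.W
open Vale.Agent.P088.R2.H551.E Vale.Agent.P088.R2.H747.SW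

variable {E ι : Type*} [NormedAddCommGroup E] [NormedSpace ℝ E] [Fintype ι]

/-- Smallness of the errors of one slot at a point, margin `m s`, no fields. -/
structure SmU (σ : Sl E ι) (W m : E → ℝ) (η K : ℝ) (z : E) : Prop where
  m0 : 0 ≤ m z
  lo : ∀ A : ι → ℝ, ∑ i, A i ^ 2 ≤ 2 * ss σ A z
  sK : ∀ A B : ι → ℝ,
    (∑ i, ∑ j, σ.s i j z * A i * B j) ^ 2 ≤ K ^ 2 * ((∑ i, A i ^ 2) * ∑ i, B i ^ 2)
  w1 : |m z * σ.Λ W z + σ.Γ m W z| ≤ η * (m z * σ.F W z)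

/-- The margin (without the factor `χ²`). -/
def MU (σ τ : Sl E ι) (W m₁ m₂ : E → ℝ) (κ₀ : ℝ) : Q8 E where
  κ _ := 1 - κ₀
  ζ₁ z := m₁ z
  ζ₂ z := m₂ z
  ζy _ := 0
  w₁ z := 1 / 3 * (m₁ z * σ.F W z)
  w₂ z := 1 / 3 * (m₂ z * τ.F W z)
  wb _ := 0
  wc _ := 0

/-- The cost. -/
def coU (σ τ : Sl E ι) (m₁ m₂ χ : E → ℝ) (η : ℝ) : Q8 E where
  κ _ := 0
  ζ₁ _ := 0
  ζ₂ _ := 0
  ζy _ := 0
  w₁ z := 3 / η * (m₁ z * σ.Γ χ χ z)
  w₂ z := 3 / η * (m₂ z * τ.Γ χ χ z)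
  wb _ := 0
  wc _ := 0

variable {σ τ : Sl E ι} {U Ω S : Set E} {θ : E → ℝ} {v v₁ v₂ W f g h a b m m₁ m₂ χ : E → ℝ}
  {η K κ₀ : ℝ} {z : E}

/-- The zero fields. -/
def c0 : ι → E → ℝ := fun _ _ => 0

omit [Fintype ι] in
theorem D_c0 (σ : Sl E ι) (i j : ι) (z : E) : σ.D i (c0 j) z = 0 := by
  have : (c0 j : E → ℝ) = fun _ => (0 : ℝ) := rfl
  rw [this, D_const]

theorem eC_c0 (σ : Sl E ι) (v W a : E → ℝ) (z : E) : eC σ c0 v W a z = 0 := by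
  have h : cY σ c0 W a z = 0 := by
    unfold cY c0
    simp
  unfold eC
  rw [h]
  have e1 : ∀ i l, σ.D i (c0 l) z = 0 := fun i l => D_c0 σ i l z
  simp only [e1]
  simp [c0]

theorem dF_c0 (σ : Sl E ι) (W : E → ℝ) (z : E) : dF σ c0 W z = 0 := by
  unfold dF
  refine Finset.sum_eq_zero fun j _ => ?_
  have : (fun z => σ.F W z * c0 j z) = fun _ => (0 : ℝ) := funext fun z => by simp [c0]
  rw [this, D_const]
  simp [c0]

theorem tc_c0 (σ : Sl E ι) (W : E → ℝ) (z : E) (A : ι → ℝ) : tc σ c0 W z A = 0 := by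
  unfold tc c0
  simp

theorem SmU.toQ (ok : σ.Ok U θ) (hW : Sm U W) (hm : Sm U m) (hz : z ∈ U) (hη : 0 ≤ η)
    (s : SmU σ W m η K z) :
    SmQ σ W (fun i j z => m z * σ.s i j z) (fun _ => 0) c0 v η K z where
  m0 := le_rfl
  qm A := by
    rw [qq_s, zero_mul]
    have := s.lo A
    have h2 : 0 ≤ ∑ i, A i ^ 2 := Finset.sum_nonneg fun _ _ => sq_nonneg _
    exact mul_nonneg s.m0 (by linarith)
  sK := s.sK
  w1 := by
    rw [dq_s ok hW hm hz, qq_s]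
    exact s.w1
  f1 := by
    rw [dF_c0, abs_zero, qq_s]
    have := s.lo fun i => σ.D i W z
    have h2 : 0 ≤ ∑ i, σ.D i W z ^ 2 := Finset.sum_nonneg fun _ _ => sq_nonneg _
    exact mul_nonneg hη (mul_nonneg s.m0 (by linarith))
  f2 a := by
    rw [eC_c0, abs_zero]
    simp
  f3 := by simp [c0]

variable [MeasureSpace E] [FiniteDimensional ℝ E] [BorelSpace E]
  [(volume : Measure E).IsAddHaarMeasure]

/-- **The weighted estimate without fields.** -/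
theorem semU (ok : σ.Ok U θ) (ot : τ.Ok U θ) (hv₁ : Sm U v₁) (hv₂ : Sm U v₂) (hW : Sm U W)
    (ha : Te U a) (hb : Te U b) (hχ : Sm U χ) (hΩ : IsOpen Ω) (h : Ω ⊆ U) (hS : IsClosed S)
    (hSU : U ∩ S ⊆ Ω) (h0 : ∀ z ∈ U, z ∉ S → χ z = 0) (hm₁ : Sm Ω m₁) (hm₂ : Sm Ω m₂)
    (hκ : 0 < κ₀) (hη : 0 < η) (hη1 : η ≤ 1 / 200) (hηκ : η ≤ κ₀)
    (hK : 0 ≤ K) (hηK : 2 * K * η ≤ 1)
    (sm₁ : ∀ z ∈ Ω, SmU σ W m₁ η K z) (sm₂ : ∀ z ∈ Ω, SmU τ W m₂ η K z)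
    (cert : ∀ z ∈ Ω, ∀ (A : ι → ℝ) (B : ι → ℝ) (x y : ℝ),
      4 * (m₁ z * ss σ A z + m₂ z * ss τ B z) -
        η * (m₁ z * σ.F W z * x ^ 2 + m₂ z * τ.F W z * y ^ 2) ≤
      8 * Ch.TH σ τ W z A B + qf σ τ v₁ v₂ W z A B x y) :
    2 * (In U θ (fun z => χ z ^ 2 * (m₁ z * ss σ (fun i => XX σ W a i z) z)) +
        In U θ (fun z => χ z ^ 2 * (m₂ z * ss τ (fun i => XX τ W b i z) z))) +
      1 / 3 * (In U θ (fun z => χ z ^ 2 * (m₁ z * (σ.Γ a a z + σ.F W z * a z ^ 2))) +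
        In U θ (fun z => χ z ^ 2 * (m₂ z * (τ.Γ b b z + τ.F W z * b z ^ 2)))) -
      κ₀ * (In U θ (fun z => χ z ^ 2 * σ.P v₁ W a z ^ 2) +
        In U θ (fun z => χ z ^ 2 * τ.P v₂ W b z ^ 2)) -
      3 / η * (In U θ (fun z => m₁ z * σ.Γ χ χ z * a z ^ 2) +
        In U θ (fun z => m₂ z * τ.Γ χ χ z * b z ^ 2)) ≤
      In U θ (fun z => χ z ^ 2 * sd σ τ v₁ v₂ W a b z) := by
  have ok' := Ok_mono ok hΩ h
  have ot' := Ok_mono ot hΩ h
  have e := semW (q := fun i j z => m₁ z * σ.s i j z) (q' := fun i j z => m₂ z * τ.s i j z)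
    (m := fun _ => (0 : ℝ)) (c := c0) (c' := c0) ok ot hv₁ hv₂ hW ha hb hχ hΩ h hS hSU h0
    (fun i => contDiffOn_const) (fun i => contDiffOn_const)
    (fun i j => hm₁.mul (ok'.ss i j)) (fun i j z => by rw [ok.sy i j])
    (fun i j => hm₂.mul (ot'.ss i j)) (fun i j z => by rw [ot.sy i j]) contDiffOn_const
    hκ hη hη1 hηκ hK hηK (fun z hz => (sm₁ z hz).toQ ok' (hW.mono h) hm₁ hz hη.le)
    (fun z hz => (sm₂ z hz).toQ ot' (hW.mono h) hm₂ hz hη.le) (fun z hz A B x y => by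
      rw [qq_s, qq_s, qq_s, qq_s, tc_c0, tc_c0, add_zero, add_zero]
      exact cert z hz A B x y)
  have r3 : ∀ z, qE σ (fun i j z => m₁ z * σ.s i j z) W a z =
      m₁ z * (σ.Γ a a z + σ.F W z * a z ^ 2) := fun z => by
    unfold qE
    rw [qq_s, qq_s]
    unfold ss Sl.F Sl.Γ
    ring
  have r4 : ∀ z, qE τ (fun i j z => m₂ z * τ.s i j z) W b z =
      m₂ z * (τ.Γ b b z + τ.F W z * b z ^ 2) := fun z => by
    unfold qE
    rw [qq_s, qq_s]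
    unfold ss Sl.F Sl.Γ
    ring
  have r5 : ∀ z, ss σ (fun i => σ.D i χ z) z = σ.Γ χ χ z := fun z => rfl
  have r6 : ∀ z, ss τ (fun i => τ.D i χ z) z = τ.Γ χ χ z := fun z => rfl
  have r7 : ∀ z : E, ro (fun _ => (0 : ℝ)) z = 0 := fun z => by simp [ro]
  have r8 : In U θ (fun _ => (0 : ℝ)) = 0 := by simp [In]
  simp only [r3, r4, qq_s, r5, r6, r7, zero_mul, r8, add_zero, mul_zero, sub_zero] at e
  exact e

/-- **A zone without fields in the common form.** -/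
theorem zoneU (ok : σ.Ok U θ) (ot : τ.Ok U θ) (hv₁ : Sm U v₁) (hv₂ : Sm U v₂) (hW : Sm U W)
    (hχ : Sm U χ) (hΩ : IsOpen Ω) (h : Ω ⊆ U) (hS : IsClosed S)
    (hSU : U ∩ S ⊆ Ω) (h0 : ∀ z ∈ U, z ∉ S → χ z = 0) (hm₁ : Sm Ω m₁) (hm₂ : Sm Ω m₂)
    (hκ : 0 < κ₀) (hη : 0 < η) (hη1 : η ≤ 1 / 200) (hηκ : η ≤ κ₀)
    (hK : 0 ≤ K) (hηK : 2 * K * η ≤ 1)
    (sm₁ : ∀ z ∈ Ω, SmU σ W m₁ η K z) (sm₂ : ∀ z ∈ Ω, SmU τ W m₂ η K z)
    (cert : ∀ z ∈ Ω, ∀ (A : ι → ℝ) (B : ι → ℝ) (x y : ℝ),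
      4 * (m₁ z * ss σ A z + m₂ z * ss τ B z) -
        η * (m₁ z * σ.F W z * x ^ 2 + m₂ z * τ.F W z * y ^ 2) ≤
      8 * Ch.TH σ τ W z A B + qf σ τ v₁ v₂ W z A B x y) :
    Zone σ τ U θ v₁ v₂ W χ ((MU σ τ W m₁ m₂ κ₀).sm fun z => χ z ^ 2)
      (coU σ τ m₁ m₂ χ η) := by
  intro a b ha hb
  have hU := ok.op
  have main := semU ok ot hv₁ hv₂ hW ha hb hχ hΩ h hS hSU h0 hm₁ hm₂ hκ hη hη1 hηκ hK hηK
    sm₁ sm₂ cert
  have hc2 : Sm U fun z => χ z ^ 2 := hχ.pow 2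
  have h1 : Sm U fun z => χ z ^ 2 * m₁ z :=
    sm_cut hU hΩ hS hSU ((hc2.mono h).mul hm₁) fun z hz hs => by rw [h0 z hz hs]; ring
  have h2 : Sm U fun z => χ z ^ 2 * m₂ z :=
    sm_cut hU hΩ hS hSU ((hc2.mono h).mul hm₂) fun z hz hs => by rw [h0 z hz hs]; ring
  have hF : Sm U (σ.F W) := ok.sG hW hW
  have hF' : Sm U (τ.F W) := ot.sG hW hW
  -- continuity of the coefficients
  have MU_ct : ((MU σ τ W m₁ m₂ κ₀).sm fun z => χ z ^ 2).Ct U := by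
    refine ⟨(hc2.mul contDiffOn_const).continuousOn, h1.continuousOn, h2.continuousOn,
      (hc2.mul contDiffOn_const).continuousOn, ?_, ?_, (hc2.mul contDiffOn_const).continuousOn,
      (hc2.mul contDiffOn_const).continuousOn⟩
    · have : Sm U fun z => 1 / 3 * ((χ z ^ 2 * m₁ z) * σ.F W z) :=
        contDiffOn_const.mul (h1.mul hF)
      refine this.continuousOn.congr fun z _ => ?_
      simp only [Q8.sm, MU, Pi.mul_apply]
      ring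
    · have : Sm U fun z => 1 / 3 * ((χ z ^ 2 * m₂ z) * τ.F W z) :=
        contDiffOn_const.mul (h2.mul hF')
      refine this.continuousOn.congr fun z _ => ?_
      simp only [Q8.sm, MU, Pi.mul_apply]
      ring
  have sG₁ : Sm U fun z => m₁ z * σ.Γ χ χ z := smG ok hχ hΩ h hS hSU h0 hm₁
  have sG₂ : Sm U fun z => m₂ z * τ.Γ χ χ z := smG ot hχ hΩ h hS hSU h0 hm₂
  have coU_ct : (coU σ τ m₁ m₂ χ η).Ct U := by
    exact ⟨continuousOn_const, continuousOn_const, continuousOn_const, continuousOn_const,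
      (contDiffOn_const.mul sG₁).continuousOn, (contDiffOn_const.mul sG₂).continuousOn,
      continuousOn_const, continuousOn_const⟩
  have tsx : Te U fun z => ss σ (fun i => XX σ W a i z) z :=
    tqq ok ok.ss fun i => tX ok hW ha i
  have tsy : Te U fun z => ss τ (fun i => XX τ W b i z) z :=
    tqq ot ot.ss fun i => tX ot hW hb i
  have f1 : Te U fun z => χ z ^ 2 * (m₁ z * ss σ (fun i => XX σ W a i z) z) :=
    (tsx.mul_left hU h1).congr fun z => by ring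
  have f2 : Te U fun z => χ z ^ 2 * (m₂ z * ss τ (fun i => XX τ W b i z) z) :=
    (tsy.mul_left hU h2).congr fun z => by ring
  have g1 : Te U fun z => σ.Γ a a z + σ.F W z * a z ^ 2 :=
    (ok.tG ha.sm ha).add hU ((ha.sq hU).mul_left hU hF)
  have g2 : Te U fun z => τ.Γ b b z + τ.F W z * b z ^ 2 :=
    (ot.tG hb.sm hb).add hU ((hb.sq hU).mul_left hU hF')
  have f3 : Te U fun z => χ z ^ 2 * (m₁ z * (σ.Γ a a z + σ.F W z * a z ^ 2)) :=
    (g1.mul_left hU h1).congr fun z => by ring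
  have f4 : Te U fun z => χ z ^ 2 * (m₂ z * (τ.Γ b b z + τ.F W z * b z ^ 2)) :=
    (g2.mul_left hU h2).congr fun z => by ring
  have f5 : Te U fun z => χ z ^ 2 * σ.P v₁ W a z ^ 2 :=
    ((ok.tP hv₁ hW ha).sq hU).mul_left hU hc2
  have f6 : Te U fun z => χ z ^ 2 * τ.P v₂ W b z ^ 2 :=
    ((ot.tP hv₂ hW hb).sq hU).mul_left hU hc2
  have f7 : Te U fun z => m₁ z * σ.Γ χ χ z * a z ^ 2 := (ha.sq hU).mul_left hU sG₁
  have f8 : Te U fun z => m₂ z * τ.Γ χ χ z * b z ^ 2 := (hb.sq hU).mul_left hU sG₂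
  have fg : Te U fun z => χ z ^ 2 * sqd σ τ v₁ v₂ W a b z :=
    (tsqd ok ot hv₁ hv₂ hW ha hb).mul_left hU hc2
  have fs : Te U fun z => χ z ^ 2 * sta σ τ v₁ v₂ W a b z :=
    (tsta ok ot hv₁ hv₂ hW ha hb).mul_left hU hc2
  have e0 : In U θ (fun z => χ z ^ 2 * dn σ τ v₁ v₂ W a b z) =
      In U θ (fun z => χ z ^ 2 * sqd σ τ v₁ v₂ W a b z) +
      In U θ (fun z => χ z ^ 2 * sta σ τ v₁ v₂ W a b z) := by
    rw [← In_add hU ok.ts fg fs]
    exact In_congr hU fun z _ => by unfold dn; ring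
  have e1 := In_add hU ok.ts f1 f2
  have e2 := In_add hU ok.ts f3 f4
  have e3 := In_add hU ok.ts f5 f6
  have e4 := In_add hU ok.ts f7 f8
  set T := fun z => χ z ^ 2 * sqd σ τ v₁ v₂ W a b z +
    (2 * (χ z ^ 2 * (m₁ z * ss σ (fun i => XX σ W a i z) z) +
      χ z ^ 2 * (m₂ z * ss τ (fun i => XX τ W b i z) z)) +
    (1 / 3 * (χ z ^ 2 * (m₁ z * (σ.Γ a a z + σ.F W z * a z ^ 2)) +
      χ z ^ 2 * (m₂ z * (τ.Γ b b z + τ.F W z * b z ^ 2))) +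
    ((-κ₀) * (χ z ^ 2 * σ.P v₁ W a z ^ 2 + χ z ^ 2 * τ.P v₂ W b z ^ 2) +
    (-(3 / η)) * (m₁ z * σ.Γ χ χ z * a z ^ 2 + m₂ z * τ.Γ χ χ z * b z ^ 2)))) with hT
  have k4 := (f7.add hU f8).cmul hU (-(3 / η))
  have k3 := (f5.add hU f6).cmul hU (-κ₀)
  have k2 := (f3.add hU f4).cmul hU (1 / 3)
  have k1 := (f1.add hU f2).cmul hU 2
  have tT : Te U T := fg.add hU (k1.add hU (k2.add hU (k3.add hU k4)))
  have eT : In U θ T ≤ In U θ (fun z => χ z ^ 2 * dn σ τ v₁ v₂ W a b z) := by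
    have := In_add hU ok.ts fg (k1.add hU (k2.add hU (k3.add hU k4)))
    rw [In_add hU ok.ts k1 (k2.add hU (k3.add hU k4)),
      In_add hU ok.ts k2 (k3.add hU k4), In_add hU ok.ts k3 k4,
      In_cmul, In_cmul, In_cmul, In_cmul, e1, e2, e3, e4] at this
    have es : In U θ (fun z => χ z ^ 2 * sta σ τ v₁ v₂ W a b z) =
      In U θ (fun z => χ z ^ 2 * sd σ τ v₁ v₂ W a b z) := rfl
    rw [e0, es, hT, this]
    linarith
  refine le_trans ?_ eT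
  have cM := Q8.int_dens ok ot hv₁ hv₂ hW ha hb MU_ct
  have cC := Q8.int_dens ok ot hv₁ hv₂ hW ha hb coU_ct
  have es : In U θ (((MU σ τ W m₁ m₂ κ₀).sm fun z => χ z ^ 2).dens σ τ v₁ v₂ W a b) -
      In U θ ((coU σ τ m₁ m₂ χ η).dens σ τ v₁ v₂ W a b) =
      ∫ z in U, (θ z * ((MU σ τ W m₁ m₂ κ₀).sm fun z => χ z ^ 2).dens σ τ v₁ v₂ W a b z -
        θ z * (coU σ τ m₁ m₂ χ η).dens σ τ v₁ v₂ W a b z) := by
    unfold In
    rw [integral_sub cM cC]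
  rw [es]
  refine setIntegral_mono_on (cM.sub cC) (te_int hU ok.ts tT) hU.measurableSet fun z hz => ?_
  rw [← mul_sub]
  refine mul_le_mul_of_nonneg_left ?_ (ok.tp z hz).le
  have y3 : 0 ≤ χ z ^ 2 * (κ₀ * (τ.P v₂ W a z ^ 2 + σ.P v₁ W b z ^ 2)) := by positivity
  have y4 : χ z ^ 2 * (m₁ z * nX σ W a z) ≤
        χ z ^ 2 * (2 * (m₁ z * ss σ (fun i => XX σ W a i z) z)) ∧
      χ z ^ 2 * (m₂ z * nX τ W b z) ≤
        χ z ^ 2 * (2 * (m₂ z * ss τ (fun i => XX τ W b i z) z)) ∧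
      0 ≤ χ z ^ 2 * (m₁ z * σ.Γ a a z) ∧ 0 ≤ χ z ^ 2 * (m₂ z * τ.Γ b b z) := by
    by_cases hs : z ∈ S
    · have hz' := hSU ⟨hz, hs⟩
      have s1 := sm₁ z hz'
      have s2 := sm₂ z hz'
      refine ⟨mul_le_mul_of_nonneg_left ?_ (sq_nonneg _),
        mul_le_mul_of_nonneg_left ?_ (sq_nonneg _), mul_nonneg (sq_nonneg _)
        (mul_nonneg s1.m0 ?_), mul_nonneg (sq_nonneg _) (mul_nonneg s2.m0 ?_)⟩
      · have := mul_le_mul_of_nonneg_left (s1.lo fun i => XX σ W a i z) s1.m0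
        unfold nX
        calc _ ≤ _ := this
          _ = _ := by ring
      · have := mul_le_mul_of_nonneg_left (s2.lo fun i => XX τ W b i z) s2.m0
        unfold nX
        calc _ ≤ _ := this
          _ = _ := by ring
      · have := s1.lo fun i => σ.D i a z
        have h3 : 0 ≤ ∑ i, σ.D i a z ^ 2 := Finset.sum_nonneg fun _ _ => sq_nonneg _
        have h4 : ss σ (fun i => σ.D i a z) z = σ.Γ a a z := rfl
        linarith
      · have := s2.lo fun i => τ.D i b z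
        have h3 : 0 ≤ ∑ i, τ.D i b z ^ 2 := Finset.sum_nonneg fun _ _ => sq_nonneg _
        have h4 : ss τ (fun i => τ.D i b z) z = τ.Γ b b z := rfl
        linarith
    · rw [h0 z hz hs]
      simp
  obtain ⟨y5, y6, y7, y8⟩ := y4
  rw [Q8.dens_sm, hT]
  simp only [Q8.dens, MU, coU]
  unfold sqd
  linarith

end Vale.Agent.P088.R2.H303.F
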